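import Vale.Agent.P184.Ind

/-!
P184, the `l1`-Bass conjecture: vanishing of trace coefficients of idempotent matrices over
`l1(G)` by deformation of representations, for arbitrary groups `G`.
-/

namespace Vale.Agent.Results.P184.Deformation

universe u v

/-- convolution of two complex functions on a group -/
noncomputable def convolution {G : Type u} [Group G] (a b : G → ℂ) (g : G) : ℂ :=
  ∑' h, a h * b (h⁻¹ * g)

/-- `e` is an idempotent matrix over the convolution algebra `l1(G)` -/
structure IsIdempotentMatrix {G : Type u} [Group G] {q : ℕ} (e : Fin q → Fin q → G → ℂ) :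
    Prop where
  summable : ∀ i j, Summable fun g => ‖e i j g‖
  idempotent : ∀ i k g, ∑ j, convolution (e i j) (e j k) g = e i k g

/-- the coefficient of the Hattori-Stallings trace at the conjugacy class of `g` -/
noncomputable def tau {G : Type u} [Group G] {q : ℕ} (e : Fin q → Fin q → G → ℂ) (g : G) : ℂ :=
  ∑' x : {x : G // IsConj g x}, ∑ i, e i i x

/-- an element of infinite order of an abelian group is detected by a real character -/
theorem exists_char {B : Type u} [CommGroup B] (b : B) (hb : ¬ IsOfFinOrder b) :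
    ∃ ψ : Additive B →+ ℝ, ψ (Additive.ofMul b) = 1 := by
  have hinj : Function.Injective ((zmultiplesHom (Additive B)) (Additive.ofMul b)) := by
    rw [injective_iff_map_eq_zero]
    intro n hn
    by_contra hne
    apply hb
    rw [isOfFinOrder_iff_zpow_eq_one]
    refine ⟨n, hne, ?_⟩
    have h1 : n • Additive.ofMul b = 0 := hn
    rw [← ofMul_zpow] at h1
    exact ofMul_eq_zero.mp h1
  obtain ⟨ψ, hψ⟩ := (Module.Baer.of_divisible ℝ).extension_property_addMonoidHom
    ((zmultiplesHom (Additive B)) (Additive.ofMul b)) hinj (Int.castAddHom ℝ)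
  refine ⟨ψ, ?_⟩
  have h := DFunLike.congr_fun hψ 1
  simpa using h

theorem result {G : Type u} [Group G] {q : ℕ} (e : Fin q → Fin q → G → ℂ)
    (he : IsIdempotentMatrix e) :
    (∀ (X : Type v) [TopologicalSpace X] [ConnectedSpace X] (n : ℕ)
        (ρ : X → (G →* Matrix (Fin n) (Fin n) ℂ)),
        (∀ g i j, Continuous fun x => ρ x g i j) →
        (∃ B : ℝ, ∀ x g i j, ‖ρ x g i j‖ ≤ B) →
        ∀ (g : G) (x y : X), (ρ x g).trace ≠ (ρ y g).trace → tau e g = 0) ∧
    (∀ (H : Subgroup G), H.FiniteIndex → ∀ (g : G) (k : ℕ) (hk : g ^ k ∈ H),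
        ¬ IsOfFinOrder (Abelianization.of (⟨g ^ k, hk⟩ : H)) → tau e g = 0) := by
  have hid : ∀ i k x, ∑ j, ∑' h, e i j h * e j k (h⁻¹ * x) = e i k x := he.idempotent
  refine ⟨?_, ?_⟩
  · intro X _ _ n ρ hcont hB g x y hne
    obtain ⟨B, hB⟩ := hB
    have h := Vale.Agent.P184.deform e he.summable hid ρ hcont B hB g x y
    have h2 : ((ρ x g).trace - (ρ y g).trace) * tau e g = 0 := by
      rw [sub_mul, sub_eq_zero]
      exact h
    rcases mul_eq_zero.mp h2 with h3 | h3
    · exact absurd (sub_eq_zero.mp h3) hne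
    · exact h3
  · intro H hH g k hk hfin
    obtain ⟨ψ, hψ⟩ := exists_char _ hfin
    classical
    let f : G → ℝ := fun x => if hx : x ∈ H then
      ψ (Additive.ofMul (Abelianization.of (⟨x, hx⟩ : H))) else 0
    have hf : ∀ a ∈ H, ∀ b ∈ H, f (a * b) = f a + f b := by
      intro a ha b hb
      have hab : a * b ∈ H := H.mul_mem ha hb
      simp only [f, dif_pos ha, dif_pos hb, dif_pos hab]
      rw [← map_add, ← ofMul_mul, ← map_mul]
      rfl
    refine Vale.Agent.P184.vanish_of_pow e he.summable hid H f hf g k hk ?_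
    simp only [f, dif_pos hk]
    rw [hψ]
    exact one_ne_zero

end Vale.Agent.Results.P184.Deformation
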