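import Vale.Agent.P184.Cor
import Vale.Agent.P184.Ring
import Vale.Agent.P184.Idem
import Vale.Agent.P184.Main
import Vale.Agent.P184.Cat0b
import Vale.Agent.P184.Fin

namespace Vale.Agent.Results.P184.UndistortedClasses

open Vale.Agent.P184

universe u v w

/-- the trace coefficient at the class of `g` vanishes for all idempotent matrices over `ℓ¹(G)` -/
def VanishAt {G : Type u} [Group G] (g : G) : Prop :=
  ∀ (q : ℕ) (e : Fin q → Fin q → G → ℂ), IsIdem e → tau e g = 0

/-- the conclusion of the `ℓ¹`-Bass conjecture for the group `G` -/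
def L1Bass (G : Type u) [Group G] : Prop :=
  ∀ (q : ℕ) (e : Fin q → Fin q → G → ℂ), IsIdem e →
    ∃ F : Finset (ConjClasses G), (∀ x : G, ConjClasses.mk x ∈ F → IsOfFinOrder x) ∧
      ∀ x : G, ConjClasses.mk x ∉ F → tau e x = 0

/-- there are finitely many conjugacy classes of elements of finite order -/
def FinTors (G : Type u) [Group G] : Prop :=
  {C : ConjClasses G | ∃ x : G, IsOfFinOrder x ∧ ConjClasses.mk x = C}.Finite

theorem l1Bass_of {G : Type u} [Group G] (hfin' : FinTors G)
    (h : ∀ x : G, ¬ IsOfFinOrder x → VanishAt x) : L1Bass G := by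
  intro q e he
  have hfin : {C : ConjClasses G | ∃ x : G, IsOfFinOrder x ∧ ConjClasses.mk x = C}.Finite := hfin'
  refine ⟨hfin.toFinset, ?_, ?_⟩
  · intro x hx
    rw [Set.Finite.mem_toFinset] at hx
    obtain ⟨y, hy, hyx⟩ := hx
    rw [ConjClasses.mk_eq_mk_iff_isConj] at hyx
    exact hyx.isOfFinOrder hy
  · intro x hx
    rw [Set.Finite.mem_toFinset] at hx
    exact h x (fun hx' => hx ⟨x, hx', rfl⟩) q e he

theorem of_hasChar {G : Type u} [Group G] {g : G} (h : HasChar g) : VanishAt g := by
  obtain ⟨ℓ, χ, hsub, hinv, hadd, hne, hle⟩ := h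
  intro q e he
  exact gen (main.{u} ring_ idem) G g ℓ _ χ (crit_hom hsub hinv hadd hne hle) q e he

theorem cat {G : Type u} [Group G] (X : Type v) [PseudoMetricSpace X] (hX : IsCAT0 X)
    (ρ : G →* (X ≃ᵢ X)) (g : G) (c : ℝ) (hc : 0 < c) (hne : Nonempty X)
    (hg : ∀ y, c ≤ dist y (ρ g y)) : VanishAt g := by
  obtain ⟨p⟩ := hne
  refine of_hasChar (cat0 hX ρ p g c hc fun n => ?_)
  have := disp_pow hX (ρ g) c hc.le hg n p
  rwa [← map_pow] at this

/-- (1) if `G` acts by isometries on a CAT(0) space and `g` has displacement bounded below by a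
positive constant, then the coefficient at `g` vanishes -/
def Displacement (G : Type u) [Group G] : Prop :=
  ∀ (X : Type v) [PseudoMetricSpace X], IsCAT0 X → ∀ (ρ : G →* (X ≃ᵢ X)) (g : G) (c : ℝ),
    0 < c → Nonempty X → (∀ y, c ≤ dist y (ρ g y)) → VanishAt g

/-- (2) if `G` acts metrically properly and coboundedly by isometries on a CAT(0) space (a CAT(0)
group), then `G` satisfies the `ℓ¹`-Bass conjecture -/
def GeometricAction (G : Type u) [Group G] : Prop :=
  ∀ (X : Type v) [PseudoMetricSpace X], IsCAT0 X → ∀ (ρ : G →* (X ≃ᵢ X)) (p : X) (R : ℝ),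
    (∀ y, ∃ h : G, dist p (ρ h y) ≤ R) → (∀ r : ℝ, {h : G | dist p (ρ h p) ≤ r}.Finite) →
    L1Bass G

/-- (3) for a finite dimensional representation `ρ` over a field of characteristic `p > 0` the
coefficient vanishes at every `g` with `ρ g` of infinite order -/
def LinearCharP (G : Type u) [Group G] : Prop :=
  ∀ (p : ℕ), p.Prime → ∀ (K : Type v) [Field K] [CharP K p] (V : Type w) [AddCommGroup V]
    [Module K V] [FiniteDimensional K V] (ρ : G →* (V →ₗ[K] V)) (g : G),
    (∀ n : ℕ, 0 < n → ρ g ^ n ≠ 1) → VanishAt g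

/-- (4) a group with a faithful such representation and finitely many classes of elements of finite
order satisfies the `ℓ¹`-Bass conjecture -/
def LinearCharPBass (G : Type u) [Group G] : Prop :=
  ∀ (p : ℕ), p.Prime → ∀ (K : Type v) [Field K] [CharP K p] (V : Type w) [AddCommGroup V]
    [Module K V] [FiniteDimensional K V] (ρ : G →* (V →ₗ[K] V)), Function.Injective ρ →
    FinTors G → L1Bass G

/-- (5) for a finite dimensional complex representation the coefficient vanishes at every `g` such
that `ρ g` has an eigenvalue which is not a root of unity -/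
def LinearComplex (G : Type u) [Group G] : Prop :=
  ∀ (V : Type w) [AddCommGroup V] [Module ℂ V] [FiniteDimensional ℂ V]
    (ρ : G →* (V →ₗ[ℂ] V)) (g : G) (lam : ℂ), Module.End.HasEigenvalue (ρ g) lam →
    (∀ n : ℕ, 0 < n → lam ^ n ≠ 1) → VanishAt g

/-- (6) for a finite dimensional representation over any field the coefficient vanishes at every `g`
such that `ρ g` has an eigenvalue transcendental over a subfield -/
def LinearTranscendental (G : Type u) [Group G] : Prop :=
  ∀ (K : Type v) [Field K] (k : Subfield K) (V : Type w) [AddCommGroup V] [Module K V]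
    [FiniteDimensional K V] (ρ : G →* (V →ₗ[K] V)) (g : G) (lam : K),
    Module.End.HasEigenvalue (ρ g) lam → Transcendental k lam → VanishAt g

/-- (7) or an eigenvalue with `f lam ≠ 1` for some absolute value `f` of the field -/
def LinearAbsoluteValue (G : Type u) [Group G] : Prop :=
  ∀ (K : Type v) [Field K] (f : AbsoluteValue K ℝ) (V : Type w) [AddCommGroup V] [Module K V]
    [FiniteDimensional K V] (ρ : G →* (V →ₗ[K] V)) (g : G) (lam : K),
    Module.End.HasEigenvalue (ρ g) lam → f lam ≠ 1 → VanishAt g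

/-- (8) the coefficient vanishes at `g` if the centralizer of `g` is amenable and `ℓ(g^n) ≥ c n`,
`c > 0`, for some length function `ℓ` of `G` -/
def AmenableCentralizer (G : Type u) [Group G] : Prop :=
  ∀ ℓ : G → ℝ, (∀ x y, ℓ (x * y) ≤ ℓ x + ℓ y) → (∀ x, ℓ x⁻¹ = ℓ x) →
    ∀ (g : G) (c : ℝ), 0 < c → (∀ n : ℕ, c * n ≤ ℓ (g ^ n)) →
    Amen (Subgroup.centralizer ({g} : Set G)) → VanishAt g

/-- (9) general criterion: it vanishes at `g` if there are a subgroup `A` with `g ∈ A ≤ C_G(g)`,
co-amenable in `C_G(g)`, and an additive `χ : A → ℝ`, `χ g ≠ 0`, bounded on `A` by a length function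
of `G` -/
def Criterion (G : Type u) [Group G] : Prop :=
  ∀ (g : G) (ℓ : G → ℝ) (A : Subgroup G) (χ : G → ℝ), Crit g ℓ A χ → VanishAt g

/-- (10) if there are finitely many classes of elements of finite order and every element of
infinite order satisfies the criterion, then `G` satisfies the `ℓ¹`-Bass conjecture -/
def CriterionBass (G : Type u) [Group G] : Prop :=
  FinTors G → (∀ g : G, ¬ IsOfFinOrder g →
    ∃ (ℓ : G → ℝ) (A : Subgroup G) (χ : G → ℝ), Crit g ℓ A χ) → L1Bass G

theorem result (G : Type u) [Group G] :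
    Displacement.{u, v} G ∧ GeometricAction.{u, v} G ∧ LinearCharP.{u, v, w} G ∧
    LinearCharPBass.{u, v, w} G ∧ LinearComplex.{u, w} G ∧ LinearTranscendental.{u, v, w} G ∧
    LinearAbsoluteValue.{u, v, w} G ∧ AmenableCentralizer G ∧ Criterion G ∧
    CriterionBass G := by
  classical
  refine ⟨cat, ?_, ?_, ?_, ?_, ?_, ?_, ?_, ?_, ?_⟩
  · intro X _ hX ρ p R hR hfin
    have key : ∀ x : G, ¬ (∀ c : ℝ, 0 < c → ∃ y, dist y (ρ x y) < c) → VanishAt x := by
      intro x hdisp
      push Not at hdisp
      obtain ⟨c, hc, hy⟩ := hdisp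
      exact cat X hX ρ x c hc ⟨p⟩ hy
    intro q e he
    refine ⟨((hfin (2 * R + 1)).toFinset.filter fun γ => IsOfFinOrder γ).image ConjClasses.mk,
      ?_, ?_⟩
    · intro x hx
      rw [Finset.mem_image] at hx
      obtain ⟨γ, hγ, hγx⟩ := hx
      rw [Finset.mem_filter] at hγ
      rw [ConjClasses.mk_eq_mk_iff_isConj] at hγx
      exact hγx.isOfFinOrder hγ.2
    · intro x hx
      refine key x (fun hdisp => ?_) q e he
      obtain ⟨γ, h1, h2, h3⟩ := geom ρ p R hR hfin x hdisp
      apply hx
      rw [Finset.mem_image]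
      refine ⟨γ, ?_, ConjClasses.mk_eq_mk_iff_isConj.2 h1.symm⟩
      rw [Finset.mem_filter, Set.Finite.mem_toFinset]
      exact ⟨h3, h2⟩
  · intro p hp K _ _ V _ _ _ ρ g h
    exact of_hasChar (lin_charp p hp ρ g h)
  · intro p hp K _ _ V _ _ _ ρ hρ hfin
    refine l1Bass_of hfin fun x hx => of_hasChar (lin_charp p hp ρ x fun n hn hxn => ?_)
    apply hx
    rw [isOfFinOrder_iff_pow_eq_one]
    refine ⟨n, hn, hρ ?_⟩
    rw [map_pow, hxn, map_one]
  · intro V _ _ _ ρ g lam hlam h
    exact of_hasChar (lin_complex ρ g lam hlam h)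
  · intro K _ k V _ _ _ ρ g lam hlam h
    exact of_hasChar (lin_trans k ρ g lam hlam h)
  · intro K _ f V _ _ _ ρ g lam hlam h
    exact of_hasChar (lin f ρ g lam hlam h)
  · intro ℓ hsub hinv g c hc hg hA q e he
    obtain ⟨χ, hχ⟩ := crit_amen hsub hinv hc hg hA
    exact gen (main.{u} ring_ idem) G g ℓ _ χ hχ q e he
  · intro g ℓ A χ h q e he
    exact gen (main.{u} ring_ idem) G g ℓ A χ h q e he
  · intro hfin hG
    refine l1Bass_of hfin fun x hx q e he => ?_
    obtain ⟨ℓ, A, χ, h⟩ := hG x hx
    exact gen (main.{u} ring_ idem) G x ℓ A χ h q e he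

end Vale.Agent.Results.P184.UndistortedClasses
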